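import Vale.Agent.H46.KSat.Finite

/-!
# Quasi-superadditivity of threshold sequences of random k-SAT (helper file of seat H46)
-/

namespace Vale.Agent.H46.KSat

open Finset

lemma exp_neg_two_mul_le (x : ℝ) (h0 : 0 ≤ x) (h1 : x ≤ 1 / 2) :
    Real.exp (-(2 * x)) ≤ 1 - x := by
  have h := Real.add_one_le_exp (2 * x)
  have hpos : (0 : ℝ) < 2 * x + 1 := by linarith
  rw [Real.exp_neg]
  calc (Real.exp (2 * x))⁻¹ ≤ (2 * x + 1)⁻¹ := inv_anti₀ hpos h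
    _ ≤ 1 - x := by
      rw [inv_eq_one_div, div_le_iff₀ hpos]
      nlinarith

lemma theta_pow_ge (q N B : ℝ) (M : ℕ) (hq : 0 ≤ q) (hN : 0 < N) (hqN : 2 * q ≤ N)
    (hM : (M : ℝ) ≤ B * N) :
    Real.exp (-(2 * q * B)) ≤ (1 - q / N) ^ M := by
  have hx0 : 0 ≤ q / N := by positivity
  have hx1 : q / N ≤ 1 / 2 := by
    rw [div_le_iff₀ hN]
    linarith
  have h1 := exp_neg_two_mul_le (q / N) hx0 hx1
  have h2 : Real.exp (-(2 * (q / N))) ^ M ≤ (1 - q / N) ^ M :=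
    pow_le_pow_left₀ (Real.exp_pos _).le h1 M
  have h3 : Real.exp (-(2 * (q / N))) ^ M = Real.exp ((M : ℝ) * (-(2 * (q / N)))) := by
    rw [Real.exp_nat_mul]
  rw [h3] at h2
  refine le_trans ?_ h2
  rw [Real.exp_le_exp]
  have h4 : (M : ℝ) * (q / N) ≤ q * B := by
    rw [← mul_div_assoc, div_le_iff₀ hN]
    calc (M : ℝ) * q ≤ (B * N) * q := mul_le_mul_of_nonneg_right hM hq
      _ = q * B * N := by ring
  linarith

/-- A threshold sequence is eventually bounded above (first-moment bound). -/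
lemma r_bdd (k : ℕ) (r : ℕ → ℝ) (hr : IsThresholdSeq k r) :
    ∃ n0 : ℕ, ∀ n : ℕ, n0 ≤ n → r n ≤ 2 ^ (k + 1) + 2 := by
  obtain ⟨nA, hA⟩ := Filter.eventually_atTop.mp
    (((hr 1 one_pos).1).eventually (lt_mem_nhds (show (1 / 2 : ℝ) < 1 by norm_num)))
  refine ⟨max nA (max k 1), fun n hn => ?_⟩
  have hnA : nA ≤ n := le_trans (le_max_left _ _) hn
  have hnk : k ≤ n := le_trans (le_trans (le_max_left _ _) (le_max_right _ _)) hn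
  have hn1 : 1 ≤ n := le_trans (le_trans (le_max_right _ _) (le_max_right _ _)) hn
  have hn1' : (1 : ℝ) ≤ (n : ℝ) := by exact_mod_cast hn1
  have hP := hA n hnA
  obtain ⟨m, hm⟩ : ∃ m : ℕ, m = ⌊(r n - 1) * (n : ℝ)⌋₊ := ⟨_, rfl⟩
  rw [← hm] at hP
  have hfm := first_moment k n m hnk
  set K : ℝ := 2 ^ k with hK
  have hKpos : 0 < K := by positivity
  have hK1 : 1 ≤ K := by
    rw [hK]
    exact one_le_pow₀ (by norm_num)
  -- bound by exponentials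
  have h2 : (2 : ℝ) ^ n ≤ Real.exp (n : ℝ) := by
    have h := Real.add_one_le_exp (1 : ℝ)
    have h' : (2 : ℝ) ≤ Real.exp 1 := by linarith
    calc (2 : ℝ) ^ n ≤ Real.exp 1 ^ n := pow_le_pow_left₀ (by norm_num) h' n
      _ = Real.exp (n : ℝ) := by rw [← Real.exp_nat_mul, mul_one]
  have h3 : (1 - 1 / K) ^ m ≤ Real.exp (-((m : ℝ) / K)) := by
    have hnn : 0 ≤ 1 - 1 / K := by
      rw [sub_nonneg, div_le_one hKpos]
      exact hK1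
    calc (1 - 1 / K) ^ m ≤ Real.exp (-(1 / K)) ^ m :=
          pow_le_pow_left₀ hnn (Real.one_sub_le_exp_neg (1 / K)) m
      _ = Real.exp (-((m : ℝ) / K)) := by
          rw [← Real.exp_nat_mul]
          congr 1
          ring
  have h4 : (1 / 2 : ℝ) < Real.exp ((n : ℝ) - (m : ℝ) / K) := by
    calc (1 / 2 : ℝ) < P k n m := hP
      _ ≤ 2 ^ n * (1 - 1 / K) ^ m := hfm
      _ ≤ Real.exp (n : ℝ) * Real.exp (-((m : ℝ) / K)) :=
          mul_le_mul h2 h3 (pow_nonneg (by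
            rw [sub_nonneg, div_le_one hKpos]
            exact hK1) m) (Real.exp_pos _).le
      _ = Real.exp ((n : ℝ) - (m : ℝ) / K) := by
          rw [← Real.exp_add]
          congr 1
  have h5 : Real.exp (-1) < 1 / 2 := by
    rw [Real.exp_neg, inv_eq_one_div]
    have := Real.exp_one_gt_d9
    rw [div_lt_div_iff₀ (Real.exp_pos 1) (by norm_num)]
    linarith
  have h6 : (-1 : ℝ) < (n : ℝ) - (m : ℝ) / K := by
    have := lt_trans h5 h4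
    exact Real.exp_lt_exp.mp this
  have h7 : (m : ℝ) < K * ((n : ℝ) + 1) := by
    have : (m : ℝ) / K < (n : ℝ) + 1 := by linarith
    rw [div_lt_iff₀ hKpos] at this
    linarith
  have h8 : (r n - 1) * (n : ℝ) < (m : ℝ) + 1 := by
    rw [hm]
    exact Nat.lt_floor_add_one _
  by_contra hcon
  have hcon' : (2 : ℝ) ^ (k + 1) + 2 < r n := not_le.mp hcon
  have h9 : (2 : ℝ) ^ (k + 1) = 2 * K := by
    rw [hK, pow_succ]
    ring
  rw [h9] at hcon'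
  have h10 : (2 * K + 1) * (n : ℝ) ≤ (r n - 1) * (n : ℝ) :=
    mul_le_mul_of_nonneg_right (by linarith) (by positivity)
  nlinarith

lemma prod_le_min_mul (x y : ℝ) (hx : 0 ≤ x) (hy : 0 ≤ y) : x * y ≤ min x y * (x + y) := by
  rcases le_total x y with h | h
  · rw [min_eq_left h]
    nlinarith
  · rw [min_eq_right h]
    nlinarith

/-- The clause budget of a block exceeds its proportional share of `M` by the margin `t`. -/
lemma window (M n a : ℕ) (Nr ρ ε t μ rn : ℝ) (hε : 0 < ε) (hNpos : 0 < Nr)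
    (hMle : (M : ℝ) ≤ (ρ + ε / 4) * Nr) (hnpos : 0 < (n : ℝ)) (hμn : μ ≤ (n : ℝ))
    (hrn : ρ + ε < rn) (ha : a = ⌊(rn - ε / 4) * (n : ℝ)⌋₊) (ht : t = ε / 4 * μ)
    (hμ8 : 8 ≤ ε * μ) :
    (M : ℝ) * (n : ℝ) / Nr + t ≤ (a : ℝ) := by
  have hε4 : 0 < ε / 4 := by positivity
  have e1 : (M : ℝ) * (n : ℝ) / Nr ≤ (ρ + ε / 4) * (n : ℝ) := by
    rw [div_le_iff₀ hNpos]
    calc (M : ℝ) * (n : ℝ) ≤ ((ρ + ε / 4) * Nr) * (n : ℝ) :=
          mul_le_mul_of_nonneg_right hMle hnpos.le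
      _ = (ρ + ε / 4) * (n : ℝ) * Nr := by ring
  have e2 : (rn - ε / 4) * (n : ℝ) < (a : ℝ) + 1 := by
    rw [ha]
    exact Nat.lt_floor_add_one _
  have e3 : (ρ + 3 * ε / 4) * (n : ℝ) ≤ (rn - ε / 4) * (n : ℝ) :=
    mul_le_mul_of_nonneg_right (by linarith) hnpos.le
  have e4 : t ≤ ε / 4 * (n : ℝ) := by
    rw [ht]
    exact mul_le_mul_of_nonneg_left hμn hε4.le
  have e5 : 2 ≤ ε / 4 * (n : ℝ) := by
    have : ε * μ ≤ ε * (n : ℝ) := mul_le_mul_of_nonneg_left hμn hε.le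
    linarith
  linarith

/-- The variance term is at most one half. -/
lemma third (M n1 n2 Nr t B ε μ : ℝ) (hμpos : 0 < μ) (hNpos : 0 < Nr)
    (hB : 0 ≤ B) (hn : 0 ≤ n1 * n2) (ht0 : 0 < t)
    (hMB : M ≤ B * Nr) (hprod : n1 * n2 ≤ μ * Nr) (hμ64 : 64 * B ≤ ε ^ 2 * μ)
    (ht : t = ε / 4 * μ) :
    1 / 2 ≤ 1 - M * n1 * n2 / (Nr ^ 2 * t ^ 2) := by
  have hle : M * n1 * n2 / (Nr ^ 2 * t ^ 2) ≤ 1 / 2 := by
    rw [div_le_iff₀ (by positivity)]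
    have hBμ : B * μ ≤ ε ^ 2 * μ / 64 * μ := by
      have : B ≤ ε ^ 2 * μ / 64 := by linarith
      exact mul_le_mul_of_nonneg_right this hμpos.le
    have hN2 : 0 ≤ Nr ^ 2 := by positivity
    have hBN : 0 ≤ B * Nr := mul_nonneg hB hNpos.le
    calc M * n1 * n2 = M * (n1 * n2) := by ring
      _ ≤ (B * Nr) * (μ * Nr) := mul_le_mul hMB hprod hn hBN
      _ = (B * μ) * Nr ^ 2 := by ring
      _ ≤ (ε ^ 2 * μ / 64 * μ) * Nr ^ 2 := mul_le_mul_of_nonneg_right hBμ hN2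
      _ ≤ 1 / 2 * (Nr ^ 2 * t ^ 2) := by
          rw [ht]
          have h1 : 1 / 2 * (Nr ^ 2 * (ε / 4 * μ) ^ 2) - (ε ^ 2 * μ / 64 * μ) * Nr ^ 2
              = (ε * μ * Nr) ^ 2 / 64 := by ring
          have h2 : 0 ≤ (ε * μ * Nr) ^ 2 / 64 := by positivity
          linarith
  linarith

/-- The finite core of the argument. -/
lemma core (k n1 n2 M a1 a2 : ℕ) (hk : 1 ≤ k) (hk1 : k ≤ n1) (hk2 : k ≤ n2)
    (ρ ε B r1 r2 : ℝ) (hε : 0 < ε) (hB : ρ + ε / 4 ≤ B)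
    (hM : M = ⌊(ρ + ε / 4) * ((n1 + n2 : ℕ) : ℝ)⌋₊) (hMpos : 0 < M)
    (ha1 : a1 = ⌊(r1 - ε / 4) * (n1 : ℝ)⌋₊) (ha2 : a2 = ⌊(r2 - ε / 4) * (n2 : ℝ)⌋₊)
    (hr1 : ρ + ε < r1) (hr2 : ρ + ε < r2)
    (hq : 2 * (4 * (k : ℝ) ^ 2 / 2 ^ k) ≤ min (n1 : ℝ) (n2 : ℝ))
    (h8 : 8 / ε ≤ min (n1 : ℝ) (n2 : ℝ)) (h64 : 64 * B / ε ^ 2 ≤ min (n1 : ℝ) (n2 : ℝ)) :
    Real.exp (-(2 * (4 * (k : ℝ) ^ 2 / 2 ^ k) * B)) * (P k n1 a1 * P k n2 a2 * (1 / 2))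
      ≤ P k (n1 + n2) M := by
  obtain ⟨Nr, hNr⟩ : ∃ x : ℝ, x = ((n1 + n2 : ℕ) : ℝ) := ⟨_, rfl⟩
  rw [← hNr] at hM
  obtain ⟨μ, hμ⟩ : ∃ μ : ℝ, μ = min (n1 : ℝ) (n2 : ℝ) := ⟨_, rfl⟩
  rw [← hμ] at hq h8 h64
  obtain ⟨q, hqdef⟩ : ∃ q : ℝ, q = 4 * (k : ℝ) ^ 2 / 2 ^ k := ⟨_, rfl⟩
  rw [← hqdef] at hq
  rw [← hqdef]
  have hq0 : 0 ≤ q := by
    rw [hqdef]
    positivity
  have hμ1 : μ ≤ (n1 : ℝ) := by
    rw [hμ]
    exact min_le_left _ _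
  have hμ2 : μ ≤ (n2 : ℝ) := by
    rw [hμ]
    exact min_le_right _ _
  have hμpos : 0 < μ := by
    have : 0 < 8 / ε := by positivity
    linarith
  have hn1pos : (0 : ℝ) < (n1 : ℝ) := by linarith
  have hn2pos : (0 : ℝ) < (n2 : ℝ) := by linarith
  have hNsum : Nr = (n1 : ℝ) + (n2 : ℝ) := by
    rw [hNr]
    push_cast
    ring
  have hNpos : 0 < Nr := by linarith
  have hx1 : 1 ≤ (ρ + ε / 4) * Nr := by
    rw [hM] at hMpos
    exact Nat.floor_pos.mp hMpos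
  have hMle : (M : ℝ) ≤ (ρ + ε / 4) * Nr := by
    rw [hM]
    exact Nat.floor_le (by linarith)
  have hρε : 0 < ρ + ε / 4 := by
    by_contra h
    have := mul_nonpos_of_nonpos_of_nonneg (not_lt.mp h) hNpos.le
    linarith
  have hB0 : 0 ≤ B := by linarith
  have hMB : (M : ℝ) ≤ B * Nr :=
    le_trans hMle (mul_le_mul_of_nonneg_right hB hNpos.le)
  have hμ8 : 8 ≤ ε * μ := by
    rw [div_le_iff₀ hε] at h8
    linarith
  have hμ64 : 64 * B ≤ ε ^ 2 * μ := by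
    rw [div_le_iff₀ (by positivity)] at h64
    linarith
  obtain ⟨t, ht⟩ : ∃ t : ℝ, t = ε / 4 * μ := ⟨_, rfl⟩
  have htpos : 0 < t := by
    rw [ht]
    positivity
  have hw1 := window M n1 a1 Nr ρ ε t μ r1 hε hNpos hMle hn1pos hμ1 hr1 ha1 ht hμ8
  have hw2 := window M n2 a2 Nr ρ ε t μ r2 hε hNpos hMle hn2pos hμ2 hr2 ha2 ht hμ8
  rw [hNr] at hw1 hw2
  have hint := interpolation k n1 n2 M a1 a2 hk hk1 hk2 t htpos hw1 hw2
  rw [← hNr] at hint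
  have hθ : Real.exp (-(2 * q * B)) ≤ (1 - 4 * (k : ℝ) ^ 2 / (2 ^ k * Nr)) ^ M := by
    have h2q : 2 * q ≤ Nr := by linarith
    have := theta_pow_ge q Nr B M hq0 hNpos h2q hMB
    have e : q / Nr = 4 * (k : ℝ) ^ 2 / (2 ^ k * Nr) := by
      rw [hqdef, div_div]
    rw [e] at this
    exact this
  have hprod : (n1 : ℝ) * (n2 : ℝ) ≤ μ * Nr := by
    rw [hμ, hNsum]
    exact prod_le_min_mul _ _ hn1pos.le hn2pos.le
  have hthird := third (M : ℝ) (n1 : ℝ) (n2 : ℝ) Nr t B ε μ hμpos hNpos hB0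
    (mul_nonneg hn1pos.le hn2pos.le) htpos hMB hprod hμ64 ht
  have hPPnn : 0 ≤ P k n1 a1 * P k n2 a2 := mul_nonneg (P_nonneg _ _ _) (P_nonneg _ _ _)
  have hθnn : 0 ≤ (1 - 4 * (k : ℝ) ^ 2 / (2 ^ k * Nr)) ^ M :=
    le_trans (Real.exp_pos _).le hθ
  refine le_trans ?_ hint
  exact mul_le_mul hθ (mul_le_mul_of_nonneg_left hthird hPPnn)
    (mul_nonneg hPPnn (by norm_num)) hθnn

/-- Any sharp-threshold sequence of random `k`-SAT is asymptotically quasi-superadditive. -/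
theorem quasi_superadditive (k : ℕ) (hk : 1 ≤ k) (r : ℕ → ℝ) (hr : IsThresholdSeq k r)
    (ε : ℝ) (hε : 0 < ε) :
    ∃ n0 : ℕ, ∀ n1 n2 : ℕ, n0 ≤ n1 → n0 ≤ n2 → min (r n1) (r n2) - ε ≤ r (n1 + n2) := by
  obtain ⟨nC, hC⟩ := r_bdd k r hr
  obtain ⟨R, hR⟩ : ∃ R : ℝ, R = 2 ^ (k + 1) + 2 := ⟨_, rfl⟩
  rw [← hR] at hC
  obtain ⟨q, hq⟩ : ∃ q : ℝ, q = 4 * (k : ℝ) ^ 2 / 2 ^ k := ⟨_, rfl⟩
  have hq0 : 0 ≤ q := by
    rw [hq]
    positivity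
  obtain ⟨B, hB⟩ : ∃ B : ℝ, B = R + ε / 4 := ⟨_, rfl⟩
  have hB0 : 0 < B := by
    rw [hB, hR]
    positivity
  obtain ⟨κ, hκ⟩ : ∃ κ : ℝ, κ = Real.exp (-(2 * q * B)) := ⟨_, rfl⟩
  have hκpos : 0 < κ := by
    rw [hκ]
    exact Real.exp_pos _
  have hε4 : 0 < ε / 4 := by positivity
  obtain ⟨nA, hA⟩ := Filter.eventually_atTop.mp
    (((hr (ε / 4) hε4).2).eventually (gt_mem_nhds (show (0 : ℝ) < κ / 8 by positivity)))
  obtain ⟨nB, hB'⟩ := Filter.eventually_atTop.mp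
    (((hr (ε / 4) hε4).1).eventually (lt_mem_nhds (show (3 / 4 : ℝ) < 1 by norm_num)))
  obtain ⟨nD, hD⟩ := exists_nat_ge (max (2 * q) (max (8 / ε) (64 * B / ε ^ 2)))
  have hD1 : 2 * q ≤ (nD : ℝ) := le_trans (le_max_left _ _) hD
  have hD2 : 8 / ε ≤ (nD : ℝ) := le_trans (le_trans (le_max_left _ _) (le_max_right _ _)) hD
  have hD3 : 64 * B / ε ^ 2 ≤ (nD : ℝ) :=
    le_trans (le_trans (le_max_right _ _) (le_max_right _ _)) hD
  refine ⟨max (max nA nB) (max (max nC nD) (max k 1)), ?_⟩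
  intro n1 n2 hn1 hn2
  simp only [max_le_iff] at hn1 hn2
  obtain ⟨⟨hA1, hB1⟩, ⟨hC1, hD1'⟩, hk1, h11⟩ := hn1
  obtain ⟨⟨hA2, hB2⟩, ⟨hC2, hD2'⟩, hk2, h12⟩ := hn2
  by_contra hcon
  have hcon' : r (n1 + n2) < min (r n1) (r n2) - ε := not_le.mp hcon
  have hr1 : r (n1 + n2) + ε < r n1 := by
    have := min_le_left (r n1) (r n2)
    linarith
  have hr2 : r (n1 + n2) + ε < r n2 := by
    have := min_le_right (r n1) (r n2)
    linarith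
  have hPM := hA (n1 + n2) (by omega)
  have hP1 := hB' n1 hB1
  have hP2 := hB' n2 hB2
  have hρR := hC (n1 + n2) (by omega)
  obtain ⟨M, hM⟩ : ∃ M : ℕ, M = ⌊(r (n1 + n2) + ε / 4) * ((n1 + n2 : ℕ) : ℝ)⌋₊ := ⟨_, rfl⟩
  rw [← hM] at hPM
  have hMpos : 0 < M := by
    by_contra h0
    have hM0 : M = 0 := by omega
    rw [hM0, P_zero] at hPM
    have hκle : κ ≤ 1 := by
      rw [hκ]
      refine Real.exp_le_one_iff.mpr ?_
      have : 0 ≤ 2 * q * B := by positivity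
      linarith
    linarith
  have hn1R : (nD : ℝ) ≤ (n1 : ℝ) := by exact_mod_cast hD1'
  have hn2R : (nD : ℝ) ≤ (n2 : ℝ) := by exact_mod_cast hD2'
  have hμD : (nD : ℝ) ≤ min (n1 : ℝ) (n2 : ℝ) := le_min hn1R hn2R
  have hcore := core k n1 n2 M _ _ hk hk1 hk2 (r (n1 + n2)) ε B (r n1) (r n2) hε
    (by rw [hB]; linarith) hM hMpos rfl rfl hr1 hr2
    (by rw [← hq]; exact le_trans hD1 hμD) (le_trans hD2 hμD) (le_trans hD3 hμD)
  rw [← hq, ← hκ] at hcore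
  have hPP : 9 / 16 ≤ P k n1 ⌊(r n1 - ε / 4) * (n1 : ℝ)⌋₊ * P k n2 ⌊(r n2 - ε / 4) * (n2 : ℝ)⌋₊ := by
    nlinarith
  have h3 : κ * (9 / 16 * (1 / 2))
      ≤ κ * (P k n1 ⌊(r n1 - ε / 4) * (n1 : ℝ)⌋₊ * P k n2 ⌊(r n2 - ε / 4) * (n2 : ℝ)⌋₊ * (1 / 2)) :=
    mul_le_mul_of_nonneg_left (mul_le_mul_of_nonneg_right hPP (by norm_num)) hκpos.le
  linarith

end Vale.Agent.H46.KSat
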