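import Vale.Agent.H46.KSat.Step

/-!
# Basic facts on the satisfiability probability (helper file of seat H46)

Monotonicity in the number of clauses, the first-moment bound, and the identification of the two
ends of the interpolation.
-/

namespace Vale.Agent.H46.KSat

open Finset

open Classical in
/-- The number of satisfiable `m`-tuples of clauses over `W`, as a sum of indicators. -/
noncomputable def Nsat1 (k : ℕ) (W : Type) [Fintype W] [DecidableEq W] (m : ℕ) : ℝ :=
  ∑ F : Fin m → Clause k W, if Satisfiable F then 1 else 0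

lemma P_eq (k n m : ℕ) :
    P k n m = Nsat1 k (Fin n) m / (Fintype.card (Clause k (Fin n)) : ℝ) ^ m := by
  classical
  unfold P Nsat1
  rw [Finset.sum_boole]

lemma Nsat1_nonneg (k : ℕ) (W : Type) [Fintype W] [DecidableEq W] (m : ℕ) :
    0 ≤ Nsat1 k W m := by
  classical
  unfold Nsat1
  exact Finset.sum_nonneg (fun F _ => by split_ifs <;> norm_num)

lemma P_nonneg (k n m : ℕ) : 0 ≤ P k n m := by
  rw [P_eq]
  exact div_nonneg (Nsat1_nonneg _ _ _) (by positivity)

lemma Nsat1_zero (k : ℕ) (W : Type) [Fintype W] [DecidableEq W] : Nsat1 k W 0 = 1 := by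
  classical
  simp [Nsat1, Satisfiable]

lemma P_zero (k n : ℕ) : P k n 0 = 1 := by
  rw [P_eq, Nsat1_zero]
  simp

lemma Nsat1_succ_le (k : ℕ) (W : Type) [Fintype W] [DecidableEq W] (m : ℕ) :
    Nsat1 k W (m + 1) ≤ (Fintype.card (Clause k W) : ℝ) * Nsat1 k W m := by
  classical
  unfold Nsat1
  rw [sum_cons, Finset.mul_sum]
  refine Finset.sum_le_sum (fun F _ => ?_)
  have h : ∀ c : Clause k W,
      (if Satisfiable (Fin.cons c F : Fin (m + 1) → Clause k W) then (1 : ℝ) else 0)
        ≤ if Satisfiable F then 1 else 0 := by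
    intro c
    by_cases hF : Satisfiable F
    · rw [if_pos hF]
      split_ifs <;> norm_num
    · have : ¬ Satisfiable (Fin.cons c F : Fin (m + 1) → Clause k W) := by
        rintro ⟨σ, hσ⟩
        exact hF ⟨σ, fun i => by simpa using hσ i.succ⟩
      rw [if_neg hF, if_neg this]
  calc ∑ c : Clause k W,
        (if Satisfiable (Fin.cons c F : Fin (m + 1) → Clause k W) then (1 : ℝ) else 0)
      ≤ ∑ _c : Clause k W, (if Satisfiable F then (1 : ℝ) else 0) :=
        Finset.sum_le_sum (fun c _ => h c)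
    _ = (Fintype.card (Clause k W) : ℝ) * (if Satisfiable F then 1 else 0) := by
        rw [Finset.sum_const, Finset.card_univ, nsmul_eq_mul]

lemma P_succ_le (k n m : ℕ) : P k n (m + 1) ≤ P k n m := by
  rw [P_eq, P_eq]
  rcases Nat.eq_zero_or_pos (Fintype.card (Clause k (Fin n))) with h0 | hpos
  · rw [h0]
    simp only [Nat.cast_zero, pow_succ, mul_zero, div_zero]
    exact div_nonneg (Nsat1_nonneg _ _ _) (by positivity)
  · have hc : (0 : ℝ) < (Fintype.card (Clause k (Fin n)) : ℝ) := by exact_mod_cast hpos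
    rw [div_le_div_iff₀ (by positivity) (by positivity)]
    have := Nsat1_succ_le k (Fin n) m
    have h2 : 0 ≤ (Fintype.card (Clause k (Fin n)) : ℝ) ^ m := by positivity
    calc Nsat1 k (Fin n) (m + 1) * (Fintype.card (Clause k (Fin n)) : ℝ) ^ m
        ≤ ((Fintype.card (Clause k (Fin n)) : ℝ) * Nsat1 k (Fin n) m)
            * (Fintype.card (Clause k (Fin n)) : ℝ) ^ m := mul_le_mul_of_nonneg_right this h2
      _ = Nsat1 k (Fin n) m * (Fintype.card (Clause k (Fin n)) : ℝ) ^ (m + 1) := by ring

lemma P_anti (k n : ℕ) {m m' : ℕ} (h : m ≤ m') : P k n m' ≤ P k n m :=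
  antitone_nat_of_succ_le (fun m => P_succ_le k n m) h

/-- The first-moment bound. -/
lemma first_moment (k n m : ℕ) (hk : k ≤ n) :
    P k n m ≤ 2 ^ n * (1 - 1 / 2 ^ k) ^ m := by
  classical
  have hcpos := card_clause_pos k (Fin n) (by simpa using hk)
  have hchoose : (0 : ℝ) < ((n.choose k : ℕ) : ℝ) := by exact_mod_cast Nat.choose_pos hk
  -- clauses satisfied by a fixed assignment
  have hsat : ∀ σ : Fin n → Bool,
      ∑ c : Clause k (Fin n), (if c.Sat σ then (1 : ℝ) else 0)
        = (Fintype.card (Clause k (Fin n)) : ℝ) - ((n.choose k : ℕ) : ℝ) := by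
    intro σ
    have := card_good (k := k) ({σ} : Set (Fin n → Bool)) σ (Set.mem_singleton σ)
    simp only [Set.mem_singleton_iff, exists_eq_left, forall_eq, Finset.filter_true_of_mem,
      Finset.mem_univ, implies_true, Finset.card_univ, Fintype.card_fin] at this
    rw [← this, Finset.sum_boole]
  have h1 : Nsat1 k (Fin n) m
      ≤ ∑ σ : Fin n → Bool, ∑ F : Fin m → Clause k (Fin n),
          (if ∀ i, (F i).Sat σ then (1 : ℝ) else 0) := by
    unfold Nsat1
    rw [Finset.sum_comm]
    refine Finset.sum_le_sum (fun F _ => ?_)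
    by_cases hF : Satisfiable F
    · obtain ⟨σ0, h0⟩ := hF
      rw [if_pos ⟨σ0, h0⟩]
      calc (1 : ℝ) = if ∀ i, (F i).Sat σ0 then (1 : ℝ) else 0 := by rw [if_pos h0]
        _ ≤ ∑ σ : Fin n → Bool, (if ∀ i, (F i).Sat σ then (1 : ℝ) else 0) :=
          Finset.single_le_sum (f := fun σ : Fin n → Bool =>
            (if ∀ i, (F i).Sat σ then (1 : ℝ) else 0))
            (fun σ _ => by split_ifs <;> norm_num) (Finset.mem_univ σ0)
    · rw [if_neg hF]
      exact Finset.sum_nonneg (fun σ _ => by split_ifs <;> norm_num)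
  have h2 : ∀ σ : Fin n → Bool, ∑ F : Fin m → Clause k (Fin n),
      (if ∀ i, (F i).Sat σ then (1 : ℝ) else 0)
        = ((Fintype.card (Clause k (Fin n)) : ℝ) - ((n.choose k : ℕ) : ℝ)) ^ m := by
    intro σ
    rw [← hsat σ, Fintype.sum_pow]
    refine Finset.sum_congr rfl (fun F _ => ?_)
    rw [Finset.prod_boole]
    simp
  simp only [h2, Finset.sum_const, Finset.card_univ, nsmul_eq_mul] at h1
  rw [P_eq, div_le_iff₀ (by positivity)]
  have hcard : (Fintype.card (Fin n → Bool) : ℝ) = 2 ^ n := by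
    simp
  rw [hcard] at h1
  have e1 : (Fintype.card (Clause k (Fin n)) : ℝ) - ((n.choose k : ℕ) : ℝ)
      = (1 - 1 / 2 ^ k) * (Fintype.card (Clause k (Fin n)) : ℝ) := by
    rw [card_clause]
    simp only [Fintype.card_fin]
    push_cast
    field_simp
  rw [e1, mul_pow] at h1
  linarith

end Vale.Agent.H46.KSat
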