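import Vale.Agent.H46.KSat.Defs

/-!
# Counting clauses (helper file of seat H46)
-/

namespace Vale.Agent.H46.KSat

open Finset

variable {k : ℕ} {W : Type} [Fintype W] [DecidableEq W]

/-- Sums over clauses split as sums over variable sets and sign patterns. -/
lemma sum_clause (φ : Clause k W → ℝ) :
    ∑ c : Clause k W, φ c
      = ∑ S : {S : Finset W // S.card = k}, ∑ s : (S.1 → Bool), φ ⟨S, s⟩ := by
  exact Fintype.sum_sigma (fun c : (Σ S : {S : Finset W // S.card = k}, (S.1 → Bool)) => φ c)

/-- The number of proper `k`-clauses. -/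
lemma card_clause : Fintype.card (Clause k W) = (Fintype.card W).choose k * 2 ^ k := by
  have h1 : Fintype.card (Clause k W)
      = ∑ S : {S : Finset W // S.card = k}, Fintype.card (S.1 → Bool) := by
    exact Fintype.card_sigma
  rw [h1]
  have h2 : ∀ S : {S : Finset W // S.card = k}, Fintype.card (S.1 → Bool) = 2 ^ k := by
    intro S
    rw [Fintype.card_fun, Fintype.card_bool, Fintype.card_coe, S.2]
  simp only [h2, Finset.sum_const, Finset.card_univ, Fintype.card_finset_len, smul_eq_mul]

open Classical in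
/-- The clauses violated by all assignments in a nonempty set `T`: their variables must be frozen
in `T` and their signs are forced, so there are `choose a k` of them, `a` the number of frozen
variables. -/
lemma card_bad (T : Set (W → Bool)) (τ0 : W → Bool) (h0 : τ0 ∈ T) :
    ((univ.filter (fun c : Clause k W => ∀ τ ∈ T, ¬ c.Sat τ)).card : ℝ)
      = (((univ.filter (fun w : W => ∀ τ ∈ T, τ w = τ0 w)).card.choose k : ℕ) : ℝ) := by
  set A : Finset W := univ.filter (fun w : W => ∀ τ ∈ T, τ w = τ0 w) with hA
  -- characterisation of the bad clauses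
  have key : ∀ (S : {S : Finset W // S.card = k}) (s : S.1 → Bool),
      (∀ τ ∈ T, ¬ Clause.Sat (⟨S, s⟩ : Clause k W) τ)
        ↔ (S.1 ⊆ A ∧ s = fun v : S.1 => !τ0 (v : W)) := by
    intro S s
    constructor
    · intro h
      have h1 : ∀ τ ∈ T, ∀ v : S.1, τ v = !s v := by
        intro τ hτ v
        have := h τ hτ
        simp only [Clause.Sat, not_exists] at this
        have h2 := this v
        revert h2
        cases τ (v : W) <;> cases s v <;> simp
      refine ⟨?_, ?_⟩
      · intro w hw
        rw [hA, Finset.mem_filter]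
        refine ⟨Finset.mem_univ _, fun τ hτ => ?_⟩
        rw [h1 τ hτ ⟨w, hw⟩, h1 τ0 h0 ⟨w, hw⟩]
      · funext v
        rw [h1 τ0 h0 v]
        simp
    · rintro ⟨hSA, rfl⟩ τ hτ
      simp only [Clause.Sat, not_exists]
      intro v
      have hv : (v : W) ∈ A := hSA v.2
      rw [hA, Finset.mem_filter] at hv
      rw [hv.2 τ hτ]
      simp
  -- count
  have h1 : ((univ.filter (fun c : Clause k W => ∀ τ ∈ T, ¬ c.Sat τ)).card : ℝ)
      = ∑ c : Clause k W, (if (∀ τ ∈ T, ¬ c.Sat τ) then (1 : ℝ) else 0) := by
    rw [Finset.card_filter]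
    push_cast
    rfl
  rw [h1, sum_clause]
  have h2 : ∀ S : {S : Finset W // S.card = k},
      ∑ s : (S.1 → Bool), (if (∀ τ ∈ T, ¬ Clause.Sat (⟨S, s⟩ : Clause k W) τ) then (1 : ℝ) else 0)
        = if S.1 ⊆ A then 1 else 0 := by
    intro S
    simp only [key]
    by_cases hS : S.1 ⊆ A
    · simp [hS]
    · simp [hS]
  simp only [h2]
  rw [Finset.sum_boole]
  norm_cast
  rw [← Finset.card_powersetCard k A]
  refine Finset.card_bij (fun S _ => S.1) ?_ ?_ ?_
  · intro S hS
    rw [Finset.mem_powersetCard]
    exact ⟨(Finset.mem_filter.mp hS).2, S.2⟩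
  · intro S _ S' _ h
    exact Subtype.ext h
  · intro S hS
    rw [Finset.mem_powersetCard] at hS
    exact ⟨⟨S, hS.2⟩, by simp [hS.1], rfl⟩

open Classical in
/-- The number of clauses satisfied by at least one assignment of a nonempty set `T`. -/
lemma card_good (T : Set (W → Bool)) (τ0 : W → Bool) (h0 : τ0 ∈ T) :
    ((univ.filter (fun c : Clause k W => ∃ τ ∈ T, c.Sat τ)).card : ℝ)
      = (Fintype.card (Clause k W) : ℝ)
        - (((univ.filter (fun w : W => ∀ τ ∈ T, τ w = τ0 w)).card.choose k : ℕ) : ℝ) := by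
  rw [← card_bad T τ0 h0]
  have h : (univ.filter (fun c : Clause k W => ∃ τ ∈ T, c.Sat τ)).card
      + (univ.filter (fun c : Clause k W => ∀ τ ∈ T, ¬ c.Sat τ)).card
      = Fintype.card (Clause k W) := by
    have := Finset.card_filter_add_card_filter_not (s := (univ : Finset (Clause k W)))
      (p := fun c : Clause k W => ∃ τ ∈ T, c.Sat τ)
    rw [Finset.card_univ] at this
    rw [← this]
    congr 2
    ext c
    simp
  rw [← h]
  push_cast
  ring

end Vale.Agent.H46.KSat
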