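import Mathlib

/-!
# Random k-SAT: the model of problem P170 (helper file of seat H46)

A proper `k`-clause over a finite variable set `V` is a set of exactly `k` variables together
with a sign for each of them.  A formula with `m` clauses is an `m`-tuple of clauses; the
clauses of the random formula are independent and uniform, so the probability of satisfiability
is the number of satisfiable `m`-tuples divided by (number of clauses)^m.
-/

namespace Vale.Agent.H46.KSat

/-- A proper `k`-clause over the variable set `V`: a set of exactly `k` variables together with a
sign for each of its variables (`true`: the variable occurs positively, `false`: negated). -/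
def Clause (k : ℕ) (V : Type) : Type :=
  Σ S : {S : Finset V // S.card = k}, (S.1 → Bool)

/-- The assignment `σ` satisfies the clause `c`: some variable `v` of the clause has
`σ v` equal to its sign in `c`. -/
def Clause.Sat {k : ℕ} {V : Type} (c : Clause k V) (σ : V → Bool) : Prop :=
  ∃ v : c.1.1, σ v = c.2 v

/-- A formula (tuple of clauses) is satisfiable if one assignment satisfies all its clauses. -/
def Satisfiable {k m : ℕ} {V : Type} (F : Fin m → Clause k V) : Prop :=
  ∃ σ : V → Bool, ∀ i, (F i).Sat σ

noncomputable instance (k : ℕ) (V : Type) [Fintype V] [DecidableEq V] : Fintype (Clause k V) := by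
  unfold Clause
  infer_instance

open Classical in
/-- `P k n m` is the probability that the conjunction of `m` independent uniformly random proper
`k`-clauses on `n` Boolean variables is satisfiable: the number of satisfiable `m`-tuples of
clauses divided by the number of all `m`-tuples of clauses. -/
noncomputable def P (k n m : ℕ) : ℝ :=
  ((Finset.univ.filter (fun F : Fin m → Clause k (Fin n) => Satisfiable F)).card : ℝ)
    / (Fintype.card (Clause k (Fin n)) : ℝ) ^ m

/-- `r` is a sharp-threshold sequence for random `k`-SAT in the sense of Friedgut's theorem:
for every `ε > 0`, `P k n ⌊(r n - ε) n⌋ → 1` and `P k n ⌊(r n + ε) n⌋ → 0` as `n → ∞`. -/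
def IsThresholdSeq (k : ℕ) (r : ℕ → ℝ) : Prop :=
  ∀ ε : ℝ, 0 < ε →
    Filter.Tendsto (fun n : ℕ => P k n ⌊(r n - ε) * n⌋₊) Filter.atTop (nhds 1) ∧
    Filter.Tendsto (fun n : ℕ => P k n ⌊(r n + ε) * n⌋₊) Filter.atTop (nhds 0)

end Vale.Agent.H46.KSat
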