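import Vale.Agent.H46.KSat.Basic

/-!
# The finite interpolation inequality for the satisfiability probability (helper file of seat H46)
-/

namespace Vale.Agent.H46.KSat

open Finset

section mixed

variable {V1 V2 V : Type} [Fintype V1] [DecidableEq V1] [Fintype V2] [DecidableEq V2]
  [Fintype V] [DecidableEq V]

/-- With no clauses on the whole variable set, the mixed formula is a pair of independent
formulas on the two blocks. -/
lemma Q_zero (k : ℕ) (e : V1 ⊕ V2 ≃ V) (m1 m2 : ℕ) :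
    Q k e 0 m1 m2 = (Nsat1 k V1 m1 / (Fintype.card (Clause k V1) : ℝ) ^ m1)
      * (Nsat1 k V2 m2 / (Fintype.card (Clause k V2) : ℝ) ^ m2) := by
  classical
  have h : ∀ (F : Fin 0 → Clause k V) (F1 : Fin m1 → Clause k V1) (F2 : Fin m2 → Clause k V2),
      (if (Sol e F F1 F2).Nonempty then (1 : ℝ) else 0)
        = (if Satisfiable F1 then 1 else 0) * (if Satisfiable F2 then 1 else 0) := by
    intro F F1 F2
    have hiff : (Sol e F F1 F2).Nonempty ↔ Satisfiable F1 ∧ Satisfiable F2 := by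
      constructor
      · rintro ⟨σ, hσ⟩
        simp only [Sol, Finset.mem_filter, Finset.mem_univ, true_and] at hσ
        exact ⟨⟨pull1 e σ, hσ.2.1⟩, ⟨pull2 e σ, hσ.2.2⟩⟩
      · rintro ⟨⟨σ1, h1⟩, ⟨σ2, h2⟩⟩
        refine ⟨fun v => Sum.elim σ1 σ2 (e.symm v), ?_⟩
        simp only [Sol, Finset.mem_filter, Finset.mem_univ, true_and]
        refine ⟨fun i => Fin.elim0 i, ?_, ?_⟩
        · have h3 : pull1 e (fun v => Sum.elim σ1 σ2 (e.symm v)) = σ1 := by
            funext v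
            simp [pull1]
          rw [h3]
          exact h1
        · have h3 : pull2 e (fun v => Sum.elim σ1 σ2 (e.symm v)) = σ2 := by
            funext v
            simp [pull2]
          rw [h3]
          exact h2
    by_cases hA : Satisfiable F1 <;> by_cases hB : Satisfiable F2 <;> simp [hiff, hA, hB]
  have hN : Nsat k e 0 m1 m2 = Nsat1 k V1 m1 * Nsat1 k V2 m2 := by
    unfold Nsat Nsat1
    simp only [h, ← Finset.sum_mul_sum]
    simp
  unfold Q
  rw [hN]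
  simp only [pow_zero, one_mul]
  rw [mul_div_mul_comm]

/-- With no clauses on the blocks, the mixed formula is a formula on the whole variable set. -/
lemma Q_top (k : ℕ) (e : V1 ⊕ V2 ≃ V) (r : ℕ) :
    Q k e r 0 0 = Nsat1 k V r / (Fintype.card (Clause k V) : ℝ) ^ r := by
  classical
  have h : ∀ (F : Fin r → Clause k V) (F1 : Fin 0 → Clause k V1) (F2 : Fin 0 → Clause k V2),
      (Sol e F F1 F2).Nonempty ↔ Satisfiable F := by
    intro F F1 F2
    constructor
    · rintro ⟨σ, hσ⟩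
      simp only [Sol, Finset.mem_filter, Finset.mem_univ, true_and] at hσ
      exact ⟨σ, hσ.1⟩
    · rintro ⟨σ, hσ⟩
      refine ⟨σ, ?_⟩
      simp only [Sol, Finset.mem_filter, Finset.mem_univ, true_and]
      exact ⟨hσ, fun i => Fin.elim0 i, fun i => Fin.elim0 i⟩
  have hN : Nsat k e r 0 0 = Nsat1 k V r := by
    unfold Nsat Nsat1
    simp only [h]
    simp
  unfold Q
  rw [hN]
  simp

end mixed

lemma two_mul_le_two_pow (k : ℕ) (hk : 1 ≤ k) : 2 * k ≤ 2 ^ k := by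
  induction k with
  | zero => omega
  | succ k ih =>
    rcases Nat.eq_zero_or_pos k with rfl | hpos
    · norm_num
    · have := ih hpos
      rw [pow_succ]
      omega

/-- The finite interpolation inequality: a formula with `M` clauses on `n1 + n2` variables is
satisfiable at least as often (up to the explicit factors) as a pair of independent formulas on
`n1` and `n2` variables with `a1` and `a2` clauses, provided `a1` and `a2` exceed the
proportional shares of `M` by a margin `t`. -/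
theorem interpolation (k n1 n2 M a1 a2 : ℕ) (hk : 1 ≤ k) (hk1 : k ≤ n1) (hk2 : k ≤ n2)
    (t : ℝ) (ht : 0 < t)
    (h1 : (M : ℝ) * (n1 : ℝ) / ((n1 + n2 : ℕ) : ℝ) + t ≤ (a1 : ℝ))
    (h2 : (M : ℝ) * (n2 : ℝ) / ((n1 + n2 : ℕ) : ℝ) + t ≤ (a2 : ℝ)) :
    (1 - 4 * (k : ℝ) ^ 2 / (2 ^ k * ((n1 + n2 : ℕ) : ℝ))) ^ M *
      (P k n1 a1 * P k n2 a2
        * (1 - (M : ℝ) * (n1 : ℝ) * (n2 : ℝ) / (((n1 + n2 : ℕ) : ℝ) ^ 2 * t ^ 2)))
      ≤ P k (n1 + n2) M := by
  set N : ℝ := ((n1 + n2 : ℕ) : ℝ) with hN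
  have hn1 : 0 < n1 := lt_of_lt_of_le hk hk1
  have hNpos : 0 < N := by
    rw [hN]
    exact_mod_cast Nat.add_pos_left hn1 n2
  have hNsum : N = (n1 : ℝ) + (n2 : ℝ) := by
    rw [hN]
    push_cast
    ring
  set θ : ℝ := 1 - 4 * (k : ℝ) ^ 2 / (2 ^ k * N) with hθ
  set l1 : ℝ := (n1 : ℝ) / N with hl1
  set l2 : ℝ := (n2 : ℝ) / N with hl2
  have hl : l1 + l2 = 1 := by
    rw [hl1, hl2, ← add_div, ← hNsum, div_self hNpos.ne']
  have hl1nn : 0 ≤ l1 := by positivity
  have hl2nn : 0 ≤ l2 := by positivity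
  have hθnn : 0 ≤ θ := by
    have h2k : (2 : ℝ) * k ≤ 2 ^ k := by exact_mod_cast two_mul_le_two_pow k hk
    have hk1' : (k : ℝ) ≤ n1 := by exact_mod_cast hk1
    have hk2' : (k : ℝ) ≤ n2 := by exact_mod_cast hk2
    have hNk : (2 : ℝ) * k ≤ N := by
      rw [hNsum]
      linarith
    have hk0 : (0 : ℝ) ≤ k := by positivity
    rw [hθ, sub_nonneg, div_le_one (by positivity)]
    nlinarith
  have hstep : ∀ r m1 m2 : ℕ,
      θ * (l1 * Q k (finSumFinEquiv : Fin n1 ⊕ Fin n2 ≃ Fin (n1 + n2)) r (m1 + 1) m2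
        + l2 * Q k (finSumFinEquiv : Fin n1 ⊕ Fin n2 ≃ Fin (n1 + n2)) r m1 (m2 + 1))
        ≤ Q k (finSumFinEquiv : Fin n1 ⊕ Fin n2 ≃ Fin (n1 + n2)) (r + 1) m1 m2 := by
    intro r m1 m2
    have := Q_step k (finSumFinEquiv : Fin n1 ⊕ Fin n2 ≃ Fin (n1 + n2)) hk
      (by simpa using hk1) (by simpa using hk2) r m1 m2
    simp only [Fintype.card_fin] at this
    exact this
  set p1 := P k n1 a1 with hp1def
  set p2 := P k n2 a2 with hp2def
  have hp1 : 0 ≤ p1 := P_nonneg _ _ _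
  have hp2 : 0 ≤ p2 := P_nonneg _ _ _
  have key := quad_induction
    (fun r m1 m2 => Q k (finSumFinEquiv : Fin n1 ⊕ Fin n2 ≃ Fin (n1 + n2)) r m1 m2)
    θ l1 l2 hθnn hl hl1nn hl2nn hstep (p1 * p2) (p1 * p2 / t ^ 2) ((M : ℝ) * l1) M 0 0 ?_
  · rw [Q_top, ← P_eq] at key
    refine le_trans (le_of_eq ?_) key
    rw [hl1, hl2]
    push_cast
    field_simp
    ring
  · intro j1 j2 hj
    simp only [zero_add]
    rw [Q_zero, ← P_eq, ← P_eq]
    have hj' : (j1 : ℝ) + (j2 : ℝ) = (M : ℝ) := by exact_mod_cast hj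
    have hM1 : (M : ℝ) * l1 = (M : ℝ) * (n1 : ℝ) / N := by
      rw [hl1, mul_div_assoc]
    have hM2 : (M : ℝ) * l2 = (M : ℝ) * (n2 : ℝ) / N := by
      rw [hl2, mul_div_assoc]
    have hPP : 0 ≤ P k n1 j1 * P k n2 j2 := mul_nonneg (P_nonneg _ _ _) (P_nonneg _ _ _)
    have hpp : 0 ≤ p1 * p2 := mul_nonneg hp1 hp2
    have ht2 : 0 < t ^ 2 := by positivity
    by_cases hwin : ((j1 : ℝ) - (M : ℝ) * l1) ^ 2 ≤ t ^ 2
    · obtain ⟨hlo, hhi⟩ := abs_le_of_sq_le_sq' hwin ht.le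
      have hj1 : j1 ≤ a1 := by
        have : (j1 : ℝ) ≤ (a1 : ℝ) := by linarith
        exact_mod_cast this
      have hj2 : j2 ≤ a2 := by
        have hMl : (M : ℝ) * l1 + (M : ℝ) * l2 = (M : ℝ) := by
          rw [← mul_add, hl, mul_one]
        have : (j2 : ℝ) ≤ (a2 : ℝ) := by linarith
        exact_mod_cast this
      have hq1 : p1 ≤ P k n1 j1 := P_anti k n1 hj1
      have hq2 : p2 ≤ P k n2 j2 := P_anti k n2 hj2
      have hprod : p1 * p2 ≤ P k n1 j1 * P k n2 j2 :=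
        mul_le_mul hq1 hq2 hp2 (le_trans hp1 hq1)
      have hnn : 0 ≤ p1 * p2 / t ^ 2 * ((j1 : ℝ) - (M : ℝ) * l1) ^ 2 := by positivity
      linarith
    · have hlt : t ^ 2 < ((j1 : ℝ) - (M : ℝ) * l1) ^ 2 := not_le.mp hwin
      have hge : p1 * p2 ≤ p1 * p2 / t ^ 2 * ((j1 : ℝ) - (M : ℝ) * l1) ^ 2 := by
        rw [div_mul_eq_mul_div, le_div_iff₀ ht2]
        exact mul_le_mul_of_nonneg_left hlt.le hpp
      linarith

end Vale.Agent.H46.KSat
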