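import Mathlib

/-!
# Elementary inequalities for ratios of binomial coefficients (helper file of seat H46)
-/

namespace Vale.Agent.H46.KSat

open Finset

/-- One-sided comparison of two products of numbers in `[0,1]`. -/
lemma prod_sub_prod_le (k : ℕ) (x y d : ℕ → ℝ)
    (hx : ∀ i ∈ range k, 0 ≤ x i ∧ x i ≤ 1) (hy : ∀ i ∈ range k, 0 ≤ y i ∧ y i ≤ 1)
    (hd : ∀ i ∈ range k, 0 ≤ d i) (h : ∀ i ∈ range k, y i - x i ≤ d i) :
    ∏ i ∈ range k, y i - ∏ i ∈ range k, x i ≤ ∑ i ∈ range k, d i := by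
  induction k with
  | zero => simp
  | succ k ih =>
    have hx' : ∀ i ∈ range k, 0 ≤ x i ∧ x i ≤ 1 :=
      fun i hi => hx i (mem_range.mpr (Nat.lt_succ_of_lt (mem_range.mp hi)))
    have hy' : ∀ i ∈ range k, 0 ≤ y i ∧ y i ≤ 1 :=
      fun i hi => hy i (mem_range.mpr (Nat.lt_succ_of_lt (mem_range.mp hi)))
    have hd' : ∀ i ∈ range k, 0 ≤ d i :=
      fun i hi => hd i (mem_range.mpr (Nat.lt_succ_of_lt (mem_range.mp hi)))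
    have h' : ∀ i ∈ range k, y i - x i ≤ d i :=
      fun i hi => h i (mem_range.mpr (Nat.lt_succ_of_lt (mem_range.mp hi)))
    have ih' := ih hx' hy' hd' h'
    have hk : k ∈ range (k + 1) := mem_range.mpr (Nat.lt_succ_self k)
    rw [prod_range_succ, prod_range_succ, sum_range_succ]
    have hX0 : 0 ≤ ∏ i ∈ range k, x i := prod_nonneg (fun i hi => (hx' i hi).1)
    have hX1 : ∏ i ∈ range k, x i ≤ 1 :=
      prod_le_one (fun i hi => (hx' i hi).1) (fun i hi => (hx' i hi).2)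
    have hS0 : 0 ≤ ∑ i ∈ range k, d i := sum_nonneg hd'
    have h1 := (hy k hk).1
    have h2 := (hy k hk).2
    have h3 := hd k hk
    have h4 := h k hk
    have h5 : (∏ i ∈ range k, y i - ∏ i ∈ range k, x i) * y k ≤ (∑ i ∈ range k, d i) * 1 := by
      calc (∏ i ∈ range k, y i - ∏ i ∈ range k, x i) * y k
          ≤ (∑ i ∈ range k, d i) * y k := mul_le_mul_of_nonneg_right ih' h1
        _ ≤ (∑ i ∈ range k, d i) * 1 := mul_le_mul_of_nonneg_left h2 hS0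
    have h6 : (∏ i ∈ range k, x i) * (y k - x k) ≤ 1 * d k := by
      calc (∏ i ∈ range k, x i) * (y k - x k)
          ≤ (∏ i ∈ range k, x i) * d k := mul_le_mul_of_nonneg_left h4 hX0
        _ ≤ 1 * d k := mul_le_mul_of_nonneg_right hX1 h3
    nlinarith

/-- The ratio of two binomial coefficients as a product. -/
lemma choose_ratio_eq_prod (a n k : ℕ) (hkn : k ≤ n) :
    ((a.choose k : ℕ) : ℝ) / ((n.choose k : ℕ) : ℝ)
      = ∏ i ∈ range k, ((a - i : ℕ) : ℝ) / ((n - i : ℕ) : ℝ) := by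
  have hk : ((k.factorial : ℕ) : ℝ) ≠ 0 := by exact_mod_cast k.factorial_ne_zero
  have h1 : ((a.descFactorial k : ℕ) : ℝ) = (k.factorial : ℝ) * (a.choose k : ℝ) := by
    exact_mod_cast Nat.descFactorial_eq_factorial_mul_choose a k
  have h2 : ((n.descFactorial k : ℕ) : ℝ) = (k.factorial : ℝ) * (n.choose k : ℝ) := by
    exact_mod_cast Nat.descFactorial_eq_factorial_mul_choose n k
  have h3 : ((a.choose k : ℕ) : ℝ) / ((n.choose k : ℕ) : ℝ)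
      = ((a.descFactorial k : ℕ) : ℝ) / ((n.descFactorial k : ℕ) : ℝ) := by
    rw [h1, h2, mul_div_mul_left _ _ hk]
  rw [h3, Nat.descFactorial_eq_prod_range, Nat.descFactorial_eq_prod_range, Nat.cast_prod,
    Nat.cast_prod, Finset.prod_div_distrib]

lemma term_bounds (a n i : ℕ) (han : a ≤ n) :
    0 ≤ ((a - i : ℕ) : ℝ) / ((n - i : ℕ) : ℝ) ∧ ((a - i : ℕ) : ℝ) / ((n - i : ℕ) : ℝ) ≤ 1 := by
  refine ⟨by positivity, ?_⟩
  apply div_le_one_of_le₀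
  · exact_mod_cast Nat.sub_le_sub_right han i
  · positivity

lemma term_le (a n i : ℕ) (han : a ≤ n) (hin : i < n) :
    ((a - i : ℕ) : ℝ) / ((n - i : ℕ) : ℝ) ≤ (a : ℝ) / (n : ℝ) := by
  have hn : (0 : ℝ) < (n : ℝ) := by exact_mod_cast (lt_of_le_of_lt (Nat.zero_le i) hin)
  have hni : (0 : ℝ) < ((n - i : ℕ) : ℝ) := by exact_mod_cast Nat.sub_pos_of_lt hin
  rw [div_le_div_iff₀ hni hn]
  rcases le_or_gt i a with hia | hia
  · rw [Nat.cast_sub hia, Nat.cast_sub hin.le]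
    have h1 : (a : ℝ) ≤ n := by exact_mod_cast han
    have h2 : (0 : ℝ) ≤ i := Nat.cast_nonneg i
    nlinarith
  · rw [Nat.sub_eq_zero_of_le hia.le]
    simp
    positivity

lemma term_ge (a n i : ℕ) (han : a ≤ n) (hin : i < n) :
    (a : ℝ) / (n : ℝ) - ((a - i : ℕ) : ℝ) / ((n - i : ℕ) : ℝ) ≤ (i : ℝ) / (n : ℝ) := by
  have hn : (0 : ℝ) < (n : ℝ) := by exact_mod_cast (lt_of_le_of_lt (Nat.zero_le i) hin)
  have hni : (0 : ℝ) < ((n - i : ℕ) : ℝ) := by exact_mod_cast Nat.sub_pos_of_lt hin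
  rcases le_or_gt i a with hia | hia
  · have h0 : ((a - i : ℕ) : ℝ) / (n : ℝ) ≤ ((a - i : ℕ) : ℝ) / ((n - i : ℕ) : ℝ) := by
      apply div_le_div_of_nonneg_left (by positivity) hni
      exact_mod_cast Nat.sub_le n i
    have h1 : ((a - i : ℕ) : ℝ) / (n : ℝ) = (a : ℝ) / n - (i : ℝ) / n := by
      rw [Nat.cast_sub hia]
      ring
    linarith
  · rw [Nat.sub_eq_zero_of_le hia.le]
    simp only [Nat.cast_zero, zero_div, sub_zero]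
    apply div_le_div_of_nonneg_right _ hn.le
    exact_mod_cast hia.le

/-- Upper bound for the ratio of binomial coefficients. -/
lemma choose_ratio_le (a n k : ℕ) (han : a ≤ n) (hkn : k ≤ n) :
    ((a.choose k : ℕ) : ℝ) / ((n.choose k : ℕ) : ℝ) ≤ ((a : ℝ) / (n : ℝ)) ^ k := by
  rw [choose_ratio_eq_prod a n k hkn]
  calc ∏ i ∈ range k, ((a - i : ℕ) : ℝ) / ((n - i : ℕ) : ℝ)
      ≤ ∏ _i ∈ range k, (a : ℝ) / (n : ℝ) :=
        prod_le_prod (fun i _ => (term_bounds a n i han).1)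
          (fun i hi => term_le a n i han (lt_of_lt_of_le (mem_range.mp hi) hkn))
    _ = ((a : ℝ) / (n : ℝ)) ^ k := by rw [Finset.prod_const, Finset.card_range]

/-- Lower bound for the ratio of binomial coefficients. -/
lemma choose_ratio_ge (a n k : ℕ) (han : a ≤ n) (hkn : k ≤ n) (hn : 0 < n) :
    ((a : ℝ) / (n : ℝ)) ^ k - ((a.choose k : ℕ) : ℝ) / ((n.choose k : ℕ) : ℝ)
      ≤ (k : ℝ) ^ 2 / (n : ℝ) := by
  have hn' : (0 : ℝ) < (n : ℝ) := by exact_mod_cast hn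
  rw [choose_ratio_eq_prod a n k hkn]
  have hu0 : 0 ≤ (a : ℝ) / (n : ℝ) := by positivity
  have hu1 : (a : ℝ) / (n : ℝ) ≤ 1 := by
    apply div_le_one_of_le₀ _ hn'.le
    exact_mod_cast han
  have h := prod_sub_prod_le k (fun i => ((a - i : ℕ) : ℝ) / ((n - i : ℕ) : ℝ))
    (fun _ => (a : ℝ) / (n : ℝ)) (fun _ => (k : ℝ) / (n : ℝ))
    (fun i _ => term_bounds a n i han) (fun _ _ => ⟨hu0, hu1⟩) (fun _ _ => by positivity)
    (fun i hi => by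
      have hik := mem_range.mp hi
      have h1 := term_ge a n i han (lt_of_lt_of_le hik hkn)
      have h2 : (i : ℝ) / (n : ℝ) ≤ (k : ℝ) / (n : ℝ) := by
        apply div_le_div_of_nonneg_right _ hn'.le
        exact_mod_cast hik.le
      linarith)
  simp only [prod_const, card_range, sum_const, nsmul_eq_mul] at h
  calc ((a : ℝ) / (n : ℝ)) ^ k - ∏ i ∈ range k, ((a - i : ℕ) : ℝ) / ((n - i : ℕ) : ℝ)
      ≤ (k : ℝ) * ((k : ℝ) / (n : ℝ)) := h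
    _ = (k : ℝ) ^ 2 / (n : ℝ) := by ring

/-- The interpolation step, abstractly. -/
lemma step_real (q l1 l2 x x1 x2 D : ℝ) (hq0 : 0 ≤ q) (hq1 : q ≤ 1 / 2)
    (hl1 : 0 ≤ l1) (hl2 : 0 ≤ l2) (hl : l1 + l2 = 1)
    (hx1 : 0 ≤ x1) (hx1' : x1 ≤ 1) (hx2 : 0 ≤ x2) (hx2' : x2 ≤ 1) (hD : 0 ≤ D)
    (e8 : x ≤ l1 * x1 + l2 * x2 + 2 * D) :
    (1 - 4 * q * D) * (l1 * (1 - q * x1) + l2 * (1 - q * x2)) ≤ 1 - q * x := by
  have hg_eq : l1 * (1 - q * x1) + l2 * (1 - q * x2) = 1 - q * (l1 * x1 + l2 * x2) := by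
    linear_combination hl
  have a1 : q * x1 ≤ 1 / 2 := by nlinarith
  have a2 : q * x2 ≤ 1 / 2 := by nlinarith
  have b1 : l1 * (q * x1) ≤ l1 * (1 / 2) := mul_le_mul_of_nonneg_left a1 hl1
  have b2 : l2 * (q * x2) ≤ l2 * (1 / 2) := mul_le_mul_of_nonneg_left a2 hl2
  have hg_half : 1 / 2 ≤ 1 - q * (l1 * x1 + l2 * x2) := by nlinarith
  have hqx : q * x ≤ q * (l1 * x1 + l2 * x2 + 2 * D) := mul_le_mul_of_nonneg_left e8 hq0
  have hqD : 0 ≤ q * D := mul_nonneg hq0 hD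
  rw [hg_eq]
  nlinarith

/-- The numerical heart of the interpolation step. -/
lemma step_ineq (k n1 n2 a1 a2 : ℕ) (hk : 1 ≤ k) (hk1 : k ≤ n1) (hk2 : k ≤ n2)
    (ha1 : a1 ≤ n1) (ha2 : a2 ≤ n2) :
    (1 - 4 * (k : ℝ) ^ 2 / (2 ^ k * ((n1 + n2 : ℕ) : ℝ))) *
      ((n1 : ℝ) / ((n1 + n2 : ℕ) : ℝ)
          * (1 - ((a1.choose k : ℕ) : ℝ) / (((n1.choose k : ℕ) : ℝ) * 2 ^ k))
        + (n2 : ℝ) / ((n1 + n2 : ℕ) : ℝ)
          * (1 - ((a2.choose k : ℕ) : ℝ) / (((n2.choose k : ℕ) : ℝ) * 2 ^ k)))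
    ≤ 1 - (((a1 + a2).choose k : ℕ) : ℝ) / ((((n1 + n2).choose k : ℕ) : ℝ) * 2 ^ k) := by
  have h1 : 0 < n1 := lt_of_lt_of_le hk hk1
  have h2 : 0 < n2 := lt_of_lt_of_le hk hk2
  have hN0 : (0 : ℝ) < ((n1 + n2 : ℕ) : ℝ) := by exact_mod_cast (Nat.add_pos_left h1 n2)
  have hn1 : (0 : ℝ) < (n1 : ℝ) := by exact_mod_cast h1
  have hn2 : (0 : ℝ) < (n2 : ℝ) := by exact_mod_cast h2
  have hNsum : ((n1 + n2 : ℕ) : ℝ) = (n1 : ℝ) + (n2 : ℝ) := by push_cast; ring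
  have hl : (n1 : ℝ) / ((n1 + n2 : ℕ) : ℝ) + (n2 : ℝ) / ((n1 + n2 : ℕ) : ℝ) = 1 := by
    rw [← add_div, ← hNsum, div_self hN0.ne']
  have hkN : k ≤ n1 + n2 := le_trans hk1 (Nat.le_add_right n1 n2)
  have haN : a1 + a2 ≤ n1 + n2 := Nat.add_le_add ha1 ha2
  have hx1_1 : ((a1.choose k : ℕ) : ℝ) / ((n1.choose k : ℕ) : ℝ) ≤ 1 := by
    apply div_le_one_of_le₀ _ (by positivity)
    exact_mod_cast Nat.choose_le_choose k ha1
  have hx2_1 : ((a2.choose k : ℕ) : ℝ) / ((n2.choose k : ℕ) : ℝ) ≤ 1 := by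
    apply div_le_one_of_le₀ _ (by positivity)
    exact_mod_cast Nat.choose_le_choose k ha2
  have e1 := choose_ratio_le (a1 + a2) (n1 + n2) k haN hkN
  have e2 : ((a1 + a2 : ℕ) : ℝ) / ((n1 + n2 : ℕ) : ℝ)
      = (n1 : ℝ) / ((n1 + n2 : ℕ) : ℝ) * ((a1 : ℝ) / (n1 : ℝ))
        + (n2 : ℝ) / ((n1 + n2 : ℕ) : ℝ) * ((a2 : ℝ) / (n2 : ℝ)) := by
    push_cast
    field_simp
  have e3 : ((n1 : ℝ) / ((n1 + n2 : ℕ) : ℝ) * ((a1 : ℝ) / (n1 : ℝ))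
        + (n2 : ℝ) / ((n1 + n2 : ℕ) : ℝ) * ((a2 : ℝ) / (n2 : ℝ))) ^ k
      ≤ (n1 : ℝ) / ((n1 + n2 : ℕ) : ℝ) * ((a1 : ℝ) / (n1 : ℝ)) ^ k
        + (n2 : ℝ) / ((n1 + n2 : ℕ) : ℝ) * ((a2 : ℝ) / (n2 : ℝ)) ^ k := by
    have hu1 : (a1 : ℝ) / (n1 : ℝ) ∈ Set.Ici (0 : ℝ) := Set.mem_Ici.mpr (by positivity)
    have hu2 : (a2 : ℝ) / (n2 : ℝ) ∈ Set.Ici (0 : ℝ) := Set.mem_Ici.mpr (by positivity)
    have hl1 : (0 : ℝ) ≤ (n1 : ℝ) / ((n1 + n2 : ℕ) : ℝ) := by positivity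
    have hl2 : (0 : ℝ) ≤ (n2 : ℝ) / ((n1 + n2 : ℕ) : ℝ) := by positivity
    have := (convexOn_pow k).2 hu1 hu2 hl1 hl2 hl
    simpa [smul_eq_mul] using this
  have e4 := choose_ratio_ge a1 n1 k ha1 hk1 h1
  have e5 := choose_ratio_ge a2 n2 k ha2 hk2 h2
  have e6 : (n1 : ℝ) / ((n1 + n2 : ℕ) : ℝ) * ((k : ℝ) ^ 2 / (n1 : ℝ))
      = (k : ℝ) ^ 2 / ((n1 + n2 : ℕ) : ℝ) := by
    field_simp
  have e7 : (n2 : ℝ) / ((n1 + n2 : ℕ) : ℝ) * ((k : ℝ) ^ 2 / (n2 : ℝ))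
      = (k : ℝ) ^ 2 / ((n1 + n2 : ℕ) : ℝ) := by
    field_simp
  have t1 : (n1 : ℝ) / ((n1 + n2 : ℕ) : ℝ) * ((a1 : ℝ) / (n1 : ℝ)) ^ k
      ≤ (n1 : ℝ) / ((n1 + n2 : ℕ) : ℝ)
        * (((a1.choose k : ℕ) : ℝ) / ((n1.choose k : ℕ) : ℝ) + (k : ℝ) ^ 2 / (n1 : ℝ)) :=
    mul_le_mul_of_nonneg_left (by linarith) (by positivity)
  have t2 : (n2 : ℝ) / ((n1 + n2 : ℕ) : ℝ) * ((a2 : ℝ) / (n2 : ℝ)) ^ k
      ≤ (n2 : ℝ) / ((n1 + n2 : ℕ) : ℝ)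
        * (((a2.choose k : ℕ) : ℝ) / ((n2.choose k : ℕ) : ℝ) + (k : ℝ) ^ 2 / (n2 : ℝ)) :=
    mul_le_mul_of_nonneg_left (by linarith) (by positivity)
  have e8 : (((a1 + a2).choose k : ℕ) : ℝ) / (((n1 + n2).choose k : ℕ) : ℝ)
      ≤ (n1 : ℝ) / ((n1 + n2 : ℕ) : ℝ) * (((a1.choose k : ℕ) : ℝ) / ((n1.choose k : ℕ) : ℝ))
        + (n2 : ℝ) / ((n1 + n2 : ℕ) : ℝ) * (((a2.choose k : ℕ) : ℝ) / ((n2.choose k : ℕ) : ℝ))
        + 2 * ((k : ℝ) ^ 2 / ((n1 + n2 : ℕ) : ℝ)) := by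
    rw [e2] at e1
    rw [mul_add, e6] at t1
    rw [mul_add, e7] at t2
    linarith
  have hq1 : (1 : ℝ) / 2 ^ k ≤ 1 / 2 := by
    apply div_le_div_of_nonneg_left (by norm_num) (by norm_num)
    calc (2 : ℝ) = 2 ^ 1 := by norm_num
      _ ≤ 2 ^ k := pow_le_pow_right₀ (by norm_num) hk
  have main := step_real (1 / 2 ^ k) ((n1 : ℝ) / ((n1 + n2 : ℕ) : ℝ))
    ((n2 : ℝ) / ((n1 + n2 : ℕ) : ℝ))
    ((((a1 + a2).choose k : ℕ) : ℝ) / (((n1 + n2).choose k : ℕ) : ℝ))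
    (((a1.choose k : ℕ) : ℝ) / ((n1.choose k : ℕ) : ℝ))
    (((a2.choose k : ℕ) : ℝ) / ((n2.choose k : ℕ) : ℝ))
    ((k : ℝ) ^ 2 / ((n1 + n2 : ℕ) : ℝ))
    (by positivity) hq1 (by positivity) (by positivity) hl (by positivity) hx1_1
    (by positivity) hx2_1 (by positivity) e8
  have g1 : ((a1.choose k : ℕ) : ℝ) / (((n1.choose k : ℕ) : ℝ) * 2 ^ k)
      = 1 / 2 ^ k * (((a1.choose k : ℕ) : ℝ) / ((n1.choose k : ℕ) : ℝ)) := by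
    field_simp
  have g2 : ((a2.choose k : ℕ) : ℝ) / (((n2.choose k : ℕ) : ℝ) * 2 ^ k)
      = 1 / 2 ^ k * (((a2.choose k : ℕ) : ℝ) / ((n2.choose k : ℕ) : ℝ)) := by
    field_simp
  have g3 : (((a1 + a2).choose k : ℕ) : ℝ) / ((((n1 + n2).choose k : ℕ) : ℝ) * 2 ^ k)
      = 1 / 2 ^ k * ((((a1 + a2).choose k : ℕ) : ℝ) / (((n1 + n2).choose k : ℕ) : ℝ)) := by
    field_simp
  have g4 : 4 * (k : ℝ) ^ 2 / (2 ^ k * ((n1 + n2 : ℕ) : ℝ))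
      = 4 * (1 / 2 ^ k) * ((k : ℝ) ^ 2 / ((n1 + n2 : ℕ) : ℝ)) := by
    field_simp
  rw [g1, g2, g3, g4]
  exact main

end Vale.Agent.H46.KSat
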