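import Vale.Agent.H46.KSat.Count
import Vale.Agent.H46.KSat.Ineq

/-!
# The interpolation inequality for random k-SAT with proper clauses (helper file of seat H46)

Variables `V ≃ V1 ⊕ V2`.  A mixed formula consists of `r` clauses on `V`, `m1` clauses on `V1`
and `m2` clauses on `V2`.  Replacing one clause on `V` by a clause on `V1` (with probability
`|V1|/|V|`) or on `V2` (with probability `|V2|/|V|`) can only decrease the probability of
satisfiability, up to a factor `1 - O(1/|V|)`.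
-/

namespace Vale.Agent.H46.KSat

open Finset

/-- Sums over tuples of length `r + 1` split off the first entry. -/
lemma sum_cons {C : Type} [Fintype C] {r : ℕ} (ψ : (Fin (r + 1) → C) → ℝ) :
    ∑ F' : Fin (r + 1) → C, ψ F' = ∑ F : Fin r → C, ∑ c : C, ψ (Fin.cons c F) := by
  rw [← (Fin.consEquiv (fun _ : Fin (r + 1) => C)).sum_comp, Fintype.sum_prod_type,
    Finset.sum_comm]
  rfl

section mixed

variable {V1 V2 V : Type}

/-- Restriction of an assignment to the first block of variables. -/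
def pull1 (e : V1 ⊕ V2 ≃ V) (σ : V → Bool) : V1 → Bool := fun v => σ (e (Sum.inl v))

/-- Restriction of an assignment to the second block of variables. -/
def pull2 (e : V1 ⊕ V2 ≃ V) (σ : V → Bool) : V2 → Bool := fun v => σ (e (Sum.inr v))

variable [Fintype V1] [DecidableEq V1] [Fintype V2] [DecidableEq V2] [Fintype V] [DecidableEq V]

open Classical in
/-- The set of solutions of a mixed formula. -/
noncomputable def Sol {k : ℕ} (e : V1 ⊕ V2 ≃ V) {r m1 m2 : ℕ} (F : Fin r → Clause k V)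
    (F1 : Fin m1 → Clause k V1) (F2 : Fin m2 → Clause k V2) : Finset (V → Bool) :=
  univ.filter (fun σ => (∀ i, (F i).Sat σ) ∧ (∀ i, (F1 i).Sat (pull1 e σ))
    ∧ (∀ i, (F2 i).Sat (pull2 e σ)))

open Classical in
/-- The number of satisfiable mixed formulas. -/
noncomputable def Nsat (k : ℕ) (e : V1 ⊕ V2 ≃ V) (r m1 m2 : ℕ) : ℝ :=
  ∑ F : Fin r → Clause k V, ∑ F1 : Fin m1 → Clause k V1, ∑ F2 : Fin m2 → Clause k V2,
    if (Sol e F F1 F2).Nonempty then 1 else 0

open Classical in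
/-- Number of clauses on `V` satisfied by some assignment in `S`. -/
noncomputable def goodV (k : ℕ) (S : Finset (V → Bool)) : ℝ :=
  ((univ.filter (fun c : Clause k V => ∃ σ ∈ S, c.Sat σ)).card : ℝ)

open Classical in
/-- Number of clauses on `V1` satisfied by the restriction of some assignment in `S`. -/
noncomputable def good1 (k : ℕ) (e : V1 ⊕ V2 ≃ V) (S : Finset (V → Bool)) : ℝ :=
  ((univ.filter (fun c : Clause k V1 => ∃ σ ∈ S, c.Sat (pull1 e σ))).card : ℝ)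

open Classical in
/-- Number of clauses on `V2` satisfied by the restriction of some assignment in `S`. -/
noncomputable def good2 (k : ℕ) (e : V1 ⊕ V2 ≃ V) (S : Finset (V → Bool)) : ℝ :=
  ((univ.filter (fun c : Clause k V2 => ∃ σ ∈ S, c.Sat (pull2 e σ))).card : ℝ)

omit [Fintype V1] [DecidableEq V1] [Fintype V2] [DecidableEq V2] in
lemma Sol_cons_nonempty {k : ℕ} (e : V1 ⊕ V2 ≃ V) {r m1 m2 : ℕ} (c : Clause k V)
    (F : Fin r → Clause k V) (F1 : Fin m1 → Clause k V1) (F2 : Fin m2 → Clause k V2) :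
    (Sol e (Fin.cons c F : Fin (r + 1) → Clause k V) F1 F2).Nonempty
      ↔ ∃ σ ∈ Sol e F F1 F2, c.Sat σ := by
  classical
  simp only [Finset.Nonempty, Sol, Finset.mem_filter, Finset.mem_univ, true_and,
    Fin.forall_fin_succ, Fin.cons_zero, Fin.cons_succ]
  constructor
  · rintro ⟨σ, ⟨h0, h⟩, h1, h2⟩
    exact ⟨σ, ⟨h, h1, h2⟩, h0⟩
  · rintro ⟨σ, ⟨h, h1, h2⟩, h0⟩
    exact ⟨σ, ⟨h0, h⟩, h1, h2⟩

omit [Fintype V1] [DecidableEq V1] [Fintype V2] [DecidableEq V2] in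
lemma Sol_cons1_nonempty {k : ℕ} (e : V1 ⊕ V2 ≃ V) {r m1 m2 : ℕ} (c : Clause k V1)
    (F : Fin r → Clause k V) (F1 : Fin m1 → Clause k V1) (F2 : Fin m2 → Clause k V2) :
    (Sol e F (Fin.cons c F1 : Fin (m1 + 1) → Clause k V1) F2).Nonempty
      ↔ ∃ σ ∈ Sol e F F1 F2, c.Sat (pull1 e σ) := by
  classical
  simp only [Finset.Nonempty, Sol, Finset.mem_filter, Finset.mem_univ, true_and,
    Fin.forall_fin_succ, Fin.cons_zero, Fin.cons_succ]
  constructor
  · rintro ⟨σ, h, ⟨h0, h1⟩, h2⟩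
    exact ⟨σ, ⟨h, h1, h2⟩, h0⟩
  · rintro ⟨σ, ⟨h, h1, h2⟩, h0⟩
    exact ⟨σ, h, ⟨h0, h1⟩, h2⟩

omit [Fintype V1] [DecidableEq V1] [Fintype V2] [DecidableEq V2] in
lemma Sol_cons2_nonempty {k : ℕ} (e : V1 ⊕ V2 ≃ V) {r m1 m2 : ℕ} (c : Clause k V2)
    (F : Fin r → Clause k V) (F1 : Fin m1 → Clause k V1) (F2 : Fin m2 → Clause k V2) :
    (Sol e F F1 (Fin.cons c F2 : Fin (m2 + 1) → Clause k V2)).Nonempty
      ↔ ∃ σ ∈ Sol e F F1 F2, c.Sat (pull2 e σ) := by
  classical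
  simp only [Finset.Nonempty, Sol, Finset.mem_filter, Finset.mem_univ, true_and,
    Fin.forall_fin_succ, Fin.cons_zero, Fin.cons_succ]
  constructor
  · rintro ⟨σ, h, h1, ⟨h0, h2⟩⟩
    exact ⟨σ, ⟨h, h1, h2⟩, h0⟩
  · rintro ⟨σ, ⟨h, h1, h2⟩, h0⟩
    exact ⟨σ, h, h1, ⟨h0, h2⟩⟩

lemma Nsat_succ (k : ℕ) (e : V1 ⊕ V2 ≃ V) (r m1 m2 : ℕ) :
    Nsat k e (r + 1) m1 m2
      = ∑ F : Fin r → Clause k V, ∑ F1 : Fin m1 → Clause k V1, ∑ F2 : Fin m2 → Clause k V2,
          goodV k (Sol e F F1 F2) := by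
  classical
  rw [Nsat, sum_cons]
  refine Finset.sum_congr rfl (fun F _ => ?_)
  rw [Finset.sum_comm]
  refine Finset.sum_congr rfl (fun F1 _ => ?_)
  rw [Finset.sum_comm]
  refine Finset.sum_congr rfl (fun F2 _ => ?_)
  simp only [Sol_cons_nonempty]
  rw [goodV, Finset.sum_boole]

lemma Nsat_succ1 (k : ℕ) (e : V1 ⊕ V2 ≃ V) (r m1 m2 : ℕ) :
    Nsat k e r (m1 + 1) m2
      = ∑ F : Fin r → Clause k V, ∑ F1 : Fin m1 → Clause k V1, ∑ F2 : Fin m2 → Clause k V2,
          good1 k e (Sol e F F1 F2) := by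
  classical
  rw [Nsat]
  refine Finset.sum_congr rfl (fun F _ => ?_)
  rw [sum_cons]
  refine Finset.sum_congr rfl (fun F1 _ => ?_)
  rw [Finset.sum_comm]
  refine Finset.sum_congr rfl (fun F2 _ => ?_)
  simp only [Sol_cons1_nonempty]
  rw [good1, Finset.sum_boole]

lemma Nsat_succ2 (k : ℕ) (e : V1 ⊕ V2 ≃ V) (r m1 m2 : ℕ) :
    Nsat k e r m1 (m2 + 1)
      = ∑ F : Fin r → Clause k V, ∑ F1 : Fin m1 → Clause k V1, ∑ F2 : Fin m2 → Clause k V2,
          good2 k e (Sol e F F1 F2) := by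
  classical
  rw [Nsat]
  refine Finset.sum_congr rfl (fun F _ => ?_)
  refine Finset.sum_congr rfl (fun F1 _ => ?_)
  rw [sum_cons]
  refine Finset.sum_congr rfl (fun F2 _ => ?_)
  simp only [Sol_cons2_nonempty]
  rw [good2, Finset.sum_boole]

end mixed

end Vale.Agent.H46.KSat
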