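import Vale.Agent.H46.KSat.Interp

/-!
# The one-step interpolation inequality (helper file of seat H46)
-/

namespace Vale.Agent.H46.KSat

open Finset

section mixed

variable {V1 V2 V : Type} [Fintype V1] [DecidableEq V1] [Fintype V2] [DecidableEq V2]
  [Fintype V] [DecidableEq V]

omit [DecidableEq V1] [DecidableEq V2] [DecidableEq V] in
/-- The frozen variables of `S` split into those of the two blocks. -/
lemma frozen_card (e : V1 ⊕ V2 ≃ V) (p : V → Prop) [DecidablePred p]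
    [DecidablePred (fun w : V1 => p (e (Sum.inl w)))]
    [DecidablePred (fun w : V2 => p (e (Sum.inr w)))] :
    (univ.filter p).card
      = (univ.filter (fun w : V1 => p (e (Sum.inl w)))).card
        + (univ.filter (fun w : V2 => p (e (Sum.inr w)))).card := by
  rw [Finset.card_filter, Finset.card_filter, Finset.card_filter, ← e.sum_comp,
    Fintype.sum_sum_type]
  congr 1 <;> exact Finset.sum_congr rfl (fun _ _ => by congr)

lemma pointwise (k : ℕ) (e : V1 ⊕ V2 ≃ V) (hk : 1 ≤ k) (hk1 : k ≤ Fintype.card V1)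
    (hk2 : k ≤ Fintype.card V2) (S : Finset (V → Bool)) :
    (1 - 4 * (k : ℝ) ^ 2 / (2 ^ k * (Fintype.card V : ℝ))) *
      ((Fintype.card V1 : ℝ) / (Fintype.card V : ℝ)
          * (good1 k e S / (Fintype.card (Clause k V1) : ℝ))
        + (Fintype.card V2 : ℝ) / (Fintype.card V : ℝ)
          * (good2 k e S / (Fintype.card (Clause k V2) : ℝ)))
      ≤ goodV k S / (Fintype.card (Clause k V) : ℝ) := by
  classical
  rcases S.eq_empty_or_nonempty with rfl | ⟨σ0, h0⟩
  · simp [goodV, good1, good2]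
  · have hV : Fintype.card V = Fintype.card V1 + Fintype.card V2 := by
      rw [← Fintype.card_congr e, Fintype.card_sum]
    -- the three counts
    have hg : goodV k S = (Fintype.card (Clause k V) : ℝ)
        - (((univ.filter (fun w : V => ∀ σ ∈ S, σ w = σ0 w)).card.choose k : ℕ) : ℝ) := by
      have := card_good (k := k) (S : Set (V → Bool)) σ0 (Finset.mem_coe.mpr h0)
      simpa [goodV] using this
    have hg1 : good1 k e S = (Fintype.card (Clause k V1) : ℝ)
        - (((univ.filter (fun w : V1 => ∀ σ ∈ S, σ (e (Sum.inl w)) = σ0 (e (Sum.inl w)))).card.choose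
            k : ℕ) : ℝ) := by
      have := card_good (k := k) (pull1 e '' (S : Set (V → Bool))) (pull1 e σ0)
        (Set.mem_image_of_mem _ (Finset.mem_coe.mpr h0))
      simpa [good1, pull1] using this
    have hg2 : good2 k e S = (Fintype.card (Clause k V2) : ℝ)
        - (((univ.filter (fun w : V2 => ∀ σ ∈ S, σ (e (Sum.inr w)) = σ0 (e (Sum.inr w)))).card.choose
            k : ℕ) : ℝ) := by
      have := card_good (k := k) (pull2 e '' (S : Set (V → Bool))) (pull2 e σ0)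
        (Set.mem_image_of_mem _ (Finset.mem_coe.mpr h0))
      simpa [good2, pull2] using this
    set a1 := (univ.filter (fun w : V1 => ∀ σ ∈ S, σ (e (Sum.inl w)) = σ0 (e (Sum.inl w)))).card
      with ha1
    set a2 := (univ.filter (fun w : V2 => ∀ σ ∈ S, σ (e (Sum.inr w)) = σ0 (e (Sum.inr w)))).card
      with ha2
    have ha : (univ.filter (fun w : V => ∀ σ ∈ S, σ w = σ0 w)).card = a1 + a2 :=
      frozen_card e (fun w : V => ∀ σ ∈ S, σ w = σ0 w)
    have hb1 : a1 ≤ Fintype.card V1 := Finset.card_le_univ _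
    have hb2 : a2 ≤ Fintype.card V2 := Finset.card_le_univ _
    have key := step_ineq k (Fintype.card V1) (Fintype.card V2) a1 a2 hk hk1 hk2 hb1 hb2
    have hc1 : (0 : ℝ) < (((Fintype.card V1).choose k : ℕ) : ℝ) := by
      exact_mod_cast Nat.choose_pos hk1
    have hc2 : (0 : ℝ) < (((Fintype.card V2).choose k : ℕ) : ℝ) := by
      exact_mod_cast Nat.choose_pos hk2
    have hc : (0 : ℝ) < (((Fintype.card V1 + Fintype.card V2).choose k : ℕ) : ℝ) := by
      exact_mod_cast Nat.choose_pos (le_trans hk1 (Nat.le_add_right _ _))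
    have h2k : (0 : ℝ) < (2 : ℝ) ^ k := by positivity
    rw [hg, hg1, hg2, ha, card_clause, card_clause, card_clause, hV]
    push_cast
    push_cast at key
    have e1 : ∀ (x c : ℝ), 0 < c → (c * 2 ^ k - x) / (c * 2 ^ k) = 1 - x / (c * 2 ^ k) := by
      intro x c hc
      field_simp
    rw [e1 _ _ hc1, e1 _ _ hc2]
    rw [e1 (((a1 + a2).choose k : ℕ) : ℝ) _ hc]
    exact key

/-- The probability that a mixed formula (`r` clauses on `V`, `m1` on `V1`, `m2` on `V2`) is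
satisfiable. -/
noncomputable def Q (k : ℕ) (e : V1 ⊕ V2 ≃ V) (r m1 m2 : ℕ) : ℝ :=
  Nsat k e r m1 m2 / ((Fintype.card (Clause k V) : ℝ) ^ r * (Fintype.card (Clause k V1) : ℝ) ^ m1
    * (Fintype.card (Clause k V2) : ℝ) ^ m2)

lemma card_clause_pos (k : ℕ) (W : Type) [Fintype W] [DecidableEq W] (h : k ≤ Fintype.card W) :
    (0 : ℝ) < (Fintype.card (Clause k W) : ℝ) := by
  rw [card_clause]
  exact_mod_cast Nat.mul_pos (Nat.choose_pos h) (Nat.pow_pos (by norm_num))

/-- The interpolation step for probabilities. -/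
lemma Q_step (k : ℕ) (e : V1 ⊕ V2 ≃ V) (hk : 1 ≤ k) (hk1 : k ≤ Fintype.card V1)
    (hk2 : k ≤ Fintype.card V2) (r m1 m2 : ℕ) :
    (1 - 4 * (k : ℝ) ^ 2 / (2 ^ k * (Fintype.card V : ℝ))) *
      ((Fintype.card V1 : ℝ) / (Fintype.card V : ℝ) * Q k e r (m1 + 1) m2
        + (Fintype.card V2 : ℝ) / (Fintype.card V : ℝ) * Q k e r m1 (m2 + 1))
      ≤ Q k e (r + 1) m1 m2 := by
  have hV : Fintype.card V = Fintype.card V1 + Fintype.card V2 := by
    rw [← Fintype.card_congr e, Fintype.card_sum]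
  have hc1 := card_clause_pos k V1 hk1
  have hc2 := card_clause_pos k V2 hk2
  have hc := card_clause_pos k V (by rw [hV]; exact le_trans hk1 (Nat.le_add_right _ _))
  set c := (Fintype.card (Clause k V) : ℝ) with hcdef
  set c1 := (Fintype.card (Clause k V1) : ℝ) with hc1def
  set c2 := (Fintype.card (Clause k V2) : ℝ) with hc2def
  set θ := (1 - 4 * (k : ℝ) ^ 2 / (2 ^ k * (Fintype.card V : ℝ))) with hθ
  set l1 := (Fintype.card V1 : ℝ) / (Fintype.card V : ℝ) with hl1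
  set l2 := (Fintype.card V2 : ℝ) / (Fintype.card V : ℝ) with hl2
  have hsum : ∑ F : Fin r → Clause k V, ∑ F1 : Fin m1 → Clause k V1,
      ∑ F2 : Fin m2 → Clause k V2,
        θ * (l1 * (good1 k e (Sol e F F1 F2) / c1) + l2 * (good2 k e (Sol e F F1 F2) / c2))
      ≤ ∑ F : Fin r → Clause k V, ∑ F1 : Fin m1 → Clause k V1,
      ∑ F2 : Fin m2 → Clause k V2, goodV k (Sol e F F1 F2) / c :=
    Finset.sum_le_sum (fun F _ => Finset.sum_le_sum (fun F1 _ => Finset.sum_le_sum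
      (fun F2 _ => pointwise k e hk hk1 hk2 (Sol e F F1 F2))))
  simp only [Finset.sum_add_distrib, ← Finset.mul_sum, ← Finset.sum_div] at hsum
  rw [← Nsat_succ, ← Nsat_succ1, ← Nsat_succ2] at hsum
  have hD : 0 < c ^ r * c1 ^ m1 * c2 ^ m2 := by positivity
  unfold Q
  rw [← hcdef, ← hc1def, ← hc2def]
  have e1 : Nsat k e r (m1 + 1) m2 / (c ^ r * c1 ^ (m1 + 1) * c2 ^ m2)
      = Nsat k e r (m1 + 1) m2 / c1 / (c ^ r * c1 ^ m1 * c2 ^ m2) := by
    rw [pow_succ]; field_simp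
  have e2 : Nsat k e r m1 (m2 + 1) / (c ^ r * c1 ^ m1 * c2 ^ (m2 + 1))
      = Nsat k e r m1 (m2 + 1) / c2 / (c ^ r * c1 ^ m1 * c2 ^ m2) := by
    rw [pow_succ]; field_simp
  have e3 : Nsat k e (r + 1) m1 m2 / (c ^ (r + 1) * c1 ^ m1 * c2 ^ m2)
      = Nsat k e (r + 1) m1 m2 / c / (c ^ r * c1 ^ m1 * c2 ^ m2) := by
    rw [pow_succ]; field_simp
  rw [e1, e2, e3]
  calc θ * (l1 * (Nsat k e r (m1 + 1) m2 / c1 / (c ^ r * c1 ^ m1 * c2 ^ m2))
        + l2 * (Nsat k e r m1 (m2 + 1) / c2 / (c ^ r * c1 ^ m1 * c2 ^ m2)))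
      = θ * (l1 * (Nsat k e r (m1 + 1) m2 / c1) + l2 * (Nsat k e r m1 (m2 + 1) / c2))
          / (c ^ r * c1 ^ m1 * c2 ^ m2) := by ring
    _ ≤ Nsat k e (r + 1) m1 m2 / c / (c ^ r * c1 ^ m1 * c2 ^ m2) :=
        div_le_div_of_nonneg_right hsum hD.le

end mixed

/-- Iterating the interpolation step against a quadratic lower bound: no binomial sums needed. -/
lemma quad_induction (Q : ℕ → ℕ → ℕ → ℝ) (θ l1 l2 : ℝ) (hθ : 0 ≤ θ) (hl : l1 + l2 = 1)
    (hl1 : 0 ≤ l1) (hl2 : 0 ≤ l2)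
    (hstep : ∀ r m1 m2, θ * (l1 * Q r (m1 + 1) m2 + l2 * Q r m1 (m2 + 1)) ≤ Q (r + 1) m1 m2)
    (α γ x0 : ℝ) (r : ℕ) : ∀ m1 m2 : ℕ,
    (∀ j1 j2 : ℕ, j1 + j2 = r →
      α - γ * (((m1 + j1 : ℕ) : ℝ) - x0) ^ 2 ≤ Q 0 (m1 + j1) (m2 + j2)) →
    θ ^ r * (α - γ * (((m1 : ℝ) + (r : ℝ) * l1 - x0) ^ 2 + (r : ℝ) * l1 * l2)) ≤ Q r m1 m2 := by
  induction r with
  | zero =>
    intro m1 m2 h
    have := h 0 0 rfl
    simpa using this
  | succ r ih =>
    intro m1 m2 h
    have h1 := ih (m1 + 1) m2 (fun j1 j2 hj => by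
      have := h (j1 + 1) j2 (by omega)
      rwa [show m1 + (j1 + 1) = m1 + 1 + j1 by omega] at this)
    have h2 := ih m1 (m2 + 1) (fun j1 j2 hj => by
      have := h j1 (j2 + 1) (by omega)
      rwa [show m2 + (j2 + 1) = m2 + 1 + j2 by omega] at this)
    have h3 := hstep r m1 m2
    have hl2' : l2 = 1 - l1 := by linarith
    calc θ ^ (r + 1) * (α - γ * (((m1 : ℝ) + ((r + 1 : ℕ) : ℝ) * l1 - x0) ^ 2
            + ((r + 1 : ℕ) : ℝ) * l1 * l2))
        = θ * (l1 * (θ ^ r * (α - γ * ((((m1 + 1 : ℕ) : ℝ) + (r : ℝ) * l1 - x0) ^ 2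
              + (r : ℝ) * l1 * l2)))
            + l2 * (θ ^ r * (α - γ * (((m1 : ℝ) + (r : ℝ) * l1 - x0) ^ 2
              + (r : ℝ) * l1 * l2)))) := by
          subst hl2'
          push_cast
          ring
      _ ≤ θ * (l1 * Q r (m1 + 1) m2 + l2 * Q r m1 (m2 + 1)) := by gcongr
      _ ≤ Q (r + 1) m1 m2 := h3

end Vale.Agent.H46.KSat
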